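import Vale.Agent.P065.H587.Ent2

/-!
# P091, AD block, row B7 (helper921): entropic sumset inequalities

Everything is in the language of `Vale.Agent.P065.Ent`: random variables are functions on a finite
type `Ω` with weights `μ`.
-/

set_option autoImplicit false

open Finset Real

noncomputable section

namespace Vale.Agent.P091.AD

open Vale.Agent.P065.Ent

variable {Ω : Type*} [Fintype Ω] {α β γ δ : Type*} {G : Type*} [AddCommGroup G] {μ : Ω → ℝ}

/-! ## Submodularity -/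

/-- submodularity: if both `(A, W)` and `(B, W)` determine `C`, then
`H (A, B | W) + H (C | W) ≤ H (A | W) + H (B | W)` -/
lemma submod (hμ : IsProb μ) (A : Ω → α) (B : Ω → β) (C : Ω → γ) (W : Ω → δ)
    (h1 : Det (fun ω => (A ω, W ω)) C) (h2 : Det (fun ω => (B ω, W ω)) C) :
    Hc μ (fun ω => (A ω, B ω)) W + Hc μ C W ≤ Hc μ A W + Hc μ B W := by
  have e1 := Hc_pair μ A B W
  have e2 : Hc μ A (fun ω => (B ω, W ω)) ≤ Hc μ A (fun ω => (C ω, W ω)) :=
    Hc_anti hμ A (h2.pair (det_snd B W))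
  have e3 := Hc_pair μ A C W
  have e4 : Hc μ (fun ω => (A ω, C ω)) W = Hc μ A W := by
    unfold Hc
    congr 1
    refine H_congr ?_ ?_
    · exact ((det_fst _ _).trans (det_fst A C)).pair (det_snd _ _)
    · exact ((det_fst A W).pair h1).pair (det_snd A W)
  linarith

/-- the mutual information of `X` and `Y` given `W` in terms of the joint entropy -/
lemma I_eq_add (μ : Ω → ℝ) (X : Ω → α) (Y : Ω → β) (W : Ω → δ) :
    I μ X Y W = Hc μ X W + Hc μ Y W - Hc μ (fun ω => (X ω, Y ω)) W := by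
  rw [Hc_pair]; unfold I; ring

/-! ## Ruzsa triangle inequality for dependent variables -/

/-- **Ruzsa triangle inequality** for arbitrary (dependent) variables:
`H (X - Z | W) ≤ H (X - Y | W) + H (Y - Z | W) - H (Y | X, Z, W)`. -/
theorem ruzsa_dep (hμ : IsProb μ) (X Y Z : Ω → G) (W : Ω → δ) :
    Hc μ (fun ω => X ω - Z ω) W ≤ Hc μ (fun ω => X ω - Y ω) W + Hc μ (fun ω => Y ω - Z ω) W
      - Hc μ Y (fun ω => ((X ω, Z ω), W ω)) := by
  have h := submod hμ (fun ω => (X ω - Y ω, Y ω - Z ω)) (fun ω => (X ω, Z ω))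
    (fun ω => X ω - Z ω) W ?_ ?_
  · have h1 := Hc_pair_le hμ (fun ω => X ω - Y ω) (fun ω => Y ω - Z ω) W
    have h2 : Hc μ (fun ω => ((X ω - Y ω, Y ω - Z ω), (X ω, Z ω))) W =
        Hc μ (fun ω => (Y ω, (X ω, Z ω))) W := by
      refine Hc_congr ?_ ?_ (Det.refl W) (Det.refl W)
      · intro a b e
        simp only [Prod.mk.injEq] at e ⊢
        obtain ⟨⟨e1, e2⟩, e3, e4⟩ := e
        refine ⟨?_, e3, e4⟩
        rw [e3] at e1
        exact sub_right_injective e1
      · intro a b e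
        simp only [Prod.mk.injEq] at e ⊢
        obtain ⟨e1, e3, e4⟩ := e
        rw [e1, e3, e4]
        exact ⟨⟨rfl, rfl⟩, rfl, rfl⟩
    have h3 := Hc_pair μ Y (fun ω => (X ω, Z ω)) W
    linarith
  · intro a b e
    simp only [Prod.mk.injEq] at e ⊢
    obtain ⟨⟨e1, e2⟩, -⟩ := e
    have : (X a - Y a) + (Y a - Z a) = (X b - Y b) + (Y b - Z b) := by rw [e1, e2]
    simpa using this
  · intro a b e
    simp only [Prod.mk.injEq] at e ⊢
    obtain ⟨⟨e1, e2⟩, -⟩ := e
    rw [e1, e2]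

omit [Fintype Ω] in
lemma det_neg (X : Ω → G) : Det X (fun ω => - X ω) := Det.comp X (fun g => -g)

omit [Fintype Ω] in
lemma det_neg' (X : Ω → G) : Det (fun ω => - X ω) X := by
  intro a b e
  simpa using e

lemma Hc_neg (μ : Ω → ℝ) (X : Ω → G) (W : Ω → δ) : Hc μ (fun ω => - X ω) W = Hc μ X W :=
  Hc_congr (det_neg' X) (det_neg X) (Det.refl W) (Det.refl W)

/-- the version with sums: `H (X - Z | W) ≤ H (X + Y | W) + H (Y + Z | W) - H (Y | X, Z, W)` -/
theorem ruzsa_dep' (hμ : IsProb μ) (X Y Z : Ω → G) (W : Ω → δ) :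
    Hc μ (fun ω => X ω - Z ω) W ≤ Hc μ (fun ω => X ω + Y ω) W + Hc μ (fun ω => Y ω + Z ω) W
      - Hc μ Y (fun ω => ((X ω, Z ω), W ω)) := by
  have h := ruzsa_dep hμ X (fun ω => - Y ω) Z W
  have e1 : (fun ω => X ω - - Y ω) = (fun ω => X ω + Y ω) := by funext ω; rw [sub_neg_eq_add]
  have e2 : Hc μ (fun ω => - Y ω - Z ω) W = Hc μ (fun ω => Y ω + Z ω) W := by
    rw [← Hc_neg μ (fun ω => Y ω + Z ω)]
    congr 1
    funext ω; abel
  rw [e1, e2, Hc_neg] at h
  exact h

/-! ## Adding a known variable -/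

/-- `H (X + Y | Y, W) = H (X | Y, W)` -/
lemma Hc_add_right (μ : Ω → ℝ) (X Y : Ω → G) (W : Ω → δ) :
    Hc μ (fun ω => X ω + Y ω) (fun ω => (Y ω, W ω)) = Hc μ X (fun ω => (Y ω, W ω)) := by
  unfold Hc
  congr 1
  refine H_congr ?_ ?_
  · intro a b e
    simp only [Prod.mk.injEq] at e ⊢
    obtain ⟨e1, e2, e3⟩ := e
    refine ⟨?_, e2, e3⟩
    rw [e2] at e1
    exact add_right_cancel e1
  · intro a b e
    simp only [Prod.mk.injEq] at e ⊢
    obtain ⟨e1, e2, e3⟩ := e
    rw [e1, e2, e3]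
    exact ⟨rfl, rfl, rfl⟩

/-- `H (X + f | W) = H (X | W)` if `f` is a function of `W` -/
lemma Hc_add_det (μ : Ω → ℝ) (X f : Ω → G) (W : Ω → δ) (h : Det W f) :
    Hc μ (fun ω => X ω + f ω) W = Hc μ X W := by
  unfold Hc
  congr 1
  refine H_congr ?_ ?_
  · intro a b e
    simp only [Prod.mk.injEq] at e ⊢
    obtain ⟨e1, e2⟩ := e
    refine ⟨?_, e2⟩
    rw [h a b e2] at e1
    exact add_right_cancel e1
  · intro a b e
    simp only [Prod.mk.injEq] at e ⊢
    obtain ⟨e1, e2⟩ := e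
    rw [e1, e2, h a b e2]
    exact ⟨rfl, rfl⟩

/-- `I (X; X + Y | W) = H (X + Y | W) - H (Y | W) + I (X; Y | W)` -/
lemma I_self_add (μ : Ω → ℝ) (X Y : Ω → G) (W : Ω → δ) :
    I μ X (fun ω => X ω + Y ω) W = Hc μ (fun ω => X ω + Y ω) W - Hc μ Y W + I μ X Y W := by
  rw [I_symm μ X (fun ω => X ω + Y ω) W, I_symm μ X Y W]
  unfold I
  have h := Hc_add_right μ Y X W
  have e : (fun ω => Y ω + X ω) = (fun ω => X ω + Y ω) := by funext ω; abel
  rw [e] at h
  rw [h]; ring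

/-- data processing with zero information: if `I (X; Y | W) = 0` then every function of `(Y, W)`
is independent of `X` given `W` -/
lemma I_zero_of_det (hμ : IsProb μ) {X : Ω → α} {Y : Ω → β} {Z : Ω → γ} {W : Ω → δ}
    (h0 : I μ X Y W = 0) (h : Det (fun ω => (Y ω, W ω)) Z) : I μ X Z W = 0 := by
  refine le_antisymm ?_ (I_nonneg hμ X Z W)
  rw [← h0]
  unfold I
  have := Hc_anti hμ X (h.pair (det_snd Y W))
  linarith

/-- if `I (X; Y | W) = 0` then `H (X | Y, W) = H (X | W)` -/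
lemma Hc_of_I_zero {X : Ω → α} {Y : Ω → β} {W : Ω → δ} (h0 : I μ X Y W = 0) :
    Hc μ X (fun ω => (Y ω, W ω)) = Hc μ X W := by
  unfold I at h0; linarith

/-! ## The Kaimanovich-Vershik-Madiman inequality -/

/-- one step: `X` independent of `(Y, S)` given `W` and `S` independent of `(Y, X)` given `W`:
`H (Y + S + X | W) - H (Y + S | W) ≤ H (Y + X | W) - H (Y | W)`. -/
theorem kvm_step (hμ : IsProb μ) (X Y S : Ω → G) (W : Ω → δ)
    (h1 : I μ X (fun ω => (Y ω, S ω)) W = 0) (h2 : I μ S (fun ω => (X ω, Y ω)) W = 0) :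
    Hc μ (fun ω => X ω + (Y ω + S ω)) W - Hc μ (fun ω => Y ω + S ω) W ≤
      Hc μ (fun ω => X ω + Y ω) W - Hc μ Y W := by
  -- `I (X; X + Y + S | W)`
  have a1 := I_self_add μ X (fun ω => Y ω + S ω) W
  have a2 : I μ X (fun ω => Y ω + S ω) W = 0 := I_zero_of_det hμ h1 fun a b e => by
    simp only [Prod.mk.injEq] at e ⊢
    obtain ⟨⟨e1, e2⟩, -⟩ := e
    rw [e1, e2]
  have a3 := I_self_add μ X Y W
  have a4 : I μ X Y W = 0 := I_zero_of_det hμ h1 fun a b e => by
    simp only [Prod.mk.injEq] at e ⊢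
    exact e.1.1
  -- data processing
  have a5 : I μ X (fun ω => X ω + (Y ω + S ω)) W ≤ I μ X (fun ω => (S ω, X ω + Y ω)) W := by
    refine I_mono_right hμ X W fun a b e => ?_
    simp only [Prod.mk.injEq] at e ⊢
    obtain ⟨e1, e2⟩ := e
    rw [← add_assoc, ← add_assoc, e1, e2]
  have a6 := I_chain μ X S (fun ω => X ω + Y ω) W
  -- the second term vanishes
  have a7 := I_chain μ S X (fun ω => X ω + Y ω) W
  have a8 : I μ S (fun ω => (X ω, X ω + Y ω)) W = 0 := I_zero_of_det hμ h2 fun a b e => by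
    simp only [Prod.mk.injEq] at e ⊢
    obtain ⟨⟨e1, e2⟩, -⟩ := e
    rw [e1, e2]
    exact ⟨rfl, rfl⟩
  have a9 := I_nonneg hμ S (fun ω => X ω + Y ω) W
  have a10 := I_nonneg hμ S X (fun ω => (X ω + Y ω, W ω))
  rw [I_symm μ X S] at a6
  linarith

/-- **Kaimanovich-Vershik-Madiman**: `Y, X 0, …, X (n-1)` independent given `W`. -/
theorem kvm (hμ : IsProb μ) (Y : Ω → G) (X : ℕ → Ω → G) (W : Ω → δ) (n : ℕ)
    (hY : I μ Y (fun ω => fun i : Fin n => X i ω) W = 0)
    (hX : ∀ m < n, I μ (X m) (fun ω => (Y ω, fun i : Fin m => X i ω)) W = 0) :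
    Hc μ (fun ω => Y ω + ∑ i ∈ range n, X i ω) W ≤
      Hc μ Y W + ∑ i ∈ range n, (Hc μ (fun ω => X i ω + Y ω) W - Hc μ Y W) := by
  induction n with
  | zero => simp
  | succ n ih =>
    have hY' : I μ Y (fun ω => fun i : Fin n => X i ω) W = 0 :=
      I_zero_of_det hμ hY fun a b e => by
        simp only [Prod.mk.injEq] at e
        funext i
        exact congrFun e.1 (Fin.castSucc i)
    have h := ih hY' fun m hm => hX m (hm.trans (Nat.lt_succ_self n))
    rw [sum_range_succ]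
    set S : Ω → G := fun ω => ∑ i ∈ range n, X i ω with hS
    have hdet : Det (fun ω => fun i : Fin n => X i ω) S := by
      intro a b e
      rw [hS]
      refine sum_congr rfl fun i hi => ?_
      exact congrFun e ⟨i, mem_range.mp hi⟩
    have h1 : I μ (X n) (fun ω => (Y ω, S ω)) W = 0 :=
      I_zero_of_det hμ (hX n (Nat.lt_succ_self n)) fun a b e => by
        simp only [Prod.mk.injEq] at e ⊢
        exact ⟨e.1.1, hdet a b e.1.2⟩
    have h2 : I μ S (fun ω => (X n ω, Y ω)) W = 0 := by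
      have b1 := I_chain μ S (X n) Y W
      have b2 : I μ S Y W = 0 := by
        rw [I_symm]
        exact I_zero_of_det hμ hY' fun a b e => by
          simp only [Prod.mk.injEq] at e
          exact hdet a b e.1
      have b3 := I_chain μ (X n) S Y W
      have b4 : I μ (X n) (fun ω => (S ω, Y ω)) W = 0 := I_zero_of_det hμ h1 fun a b e => by
        simp only [Prod.mk.injEq] at e ⊢
        exact ⟨e.1.2, e.1.1⟩
      have b5 := I_nonneg hμ (X n) Y W
      have b6 := I_nonneg hμ (X n) S (fun ω => (Y ω, W ω))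
      rw [I_symm μ S (X n)] at b1
      linarith
    have h3 := kvm_step hμ (X n) Y S W h1 h2
    have h4 : (fun ω => Y ω + ∑ i ∈ range (n + 1), X i ω) =
        (fun ω => X n ω + (Y ω + S ω)) := by
      funext ω
      rw [sum_range_succ, hS]
      abel
    rw [h4]
    linarith

/-! ## Entropy depends only on the law -/

/-- entropy as a sum over the values -/
lemma H_eq_sum [DecidableEq α] (μ : Ω → ℝ) (X : Ω → α) :
    H μ X = ∑ x ∈ univ.image X, negMulLog (Pr μ X x) := by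
  unfold H
  rw [sum_fiber μ X (fun x => - log (Pr μ X x))]
  refine sum_congr rfl fun x _ => ?_
  unfold negMulLog; ring

lemma H_eq_sum_of_subset [DecidableEq α] (μ : Ω → ℝ) (X : Ω → α) (s : Finset α)
    (hs : ∀ ω, X ω ∈ s) : H μ X = ∑ x ∈ s, negMulLog (Pr μ X x) := by
  rw [H_eq_sum]
  refine sum_subset (fun x hx => ?_) fun x _ hx => ?_
  · obtain ⟨ω, -, rfl⟩ := mem_image.mp hx
    exact hs ω
  · rw [Pr_eq_zero X fun ω h => hx (by rw [← h]; exact mem_image_of_mem X (mem_univ ω))]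
    simp

/-- two variables with the same law have the same entropy -/
theorem H_eq_of_law {Ω' : Type*} [Fintype Ω'] {μ' : Ω' → ℝ} {X : Ω → α} {X' : Ω' → α}
    (h : ∀ x, Pr μ X x = Pr μ' X' x) : H μ X = H μ' X' := by
  classical
  rw [H_eq_sum_of_subset μ X (univ.image X ∪ univ.image X') fun ω =>
      mem_union_left _ (mem_image_of_mem X (mem_univ ω)),
    H_eq_sum_of_subset μ' X' (univ.image X ∪ univ.image X') fun ω =>
      mem_union_right _ (mem_image_of_mem X' (mem_univ ω))]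
  exact sum_congr rfl fun x _ => by rw [h]

/-- `Pr` of a function of a variable -/
lemma Pr_comp [DecidableEq α] [DecidableEq β] (μ : Ω → ℝ) (X : Ω → α) (f : α → β) (y : β)
    (s : Finset α) (hs : ∀ ω, X ω ∈ s) :
    Pr μ (fun ω => f (X ω)) y = ∑ x ∈ s, if f x = y then Pr μ X x else 0 := by
  classical
  have h1 : ∀ x ∈ s, (if f x = y then Pr μ X x else 0) =
      ∑ ω, if X ω = x then (if f (X ω) = y then μ ω else 0) else 0 := by
    intro x _
    by_cases hx : f x = y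
    · rw [if_pos hx]
      unfold Pr
      refine sum_congr rfl fun ω _ => ?_
      by_cases hv : X ω = x
      · rw [if_pos hv, if_pos hv, hv, if_pos hx]
      · rw [if_neg hv, if_neg hv]
    · rw [if_neg hx]
      symm
      refine sum_eq_zero fun ω _ => ?_
      by_cases hv : X ω = x
      · rw [if_pos hv, hv, if_neg hx]
      · rw [if_neg hv]
  rw [sum_congr rfl h1, sum_comm]
  unfold Pr
  refine sum_congr rfl fun ω _ => ?_
  rw [sum_ite_eq, if_pos (hs ω)]
  by_cases hv : f (X ω) = y <;> simp [hv]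

lemma Pr_comp_of_law {Ω' : Type*} [Fintype Ω'] {μ' : Ω' → ℝ} {X : Ω → α} {X' : Ω' → α}
    (h : ∀ x, Pr μ X x = Pr μ' X' x) (f : α → β) (y : β) :
    Pr μ (fun ω => f (X ω)) y = Pr μ' (fun ω => f (X' ω)) y := by
  classical
  rw [Pr_comp μ X f y (univ.image X ∪ univ.image X') fun ω =>
      mem_union_left _ (mem_image_of_mem X (mem_univ ω)),
    Pr_comp μ' X' f y (univ.image X ∪ univ.image X') fun ω =>
      mem_union_right _ (mem_image_of_mem X' (mem_univ ω))]
  exact sum_congr rfl fun x _ => by rw [h]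

/-- if `X` and `X'` have the same law then so have `H (f X)` and `H (f X')` -/
lemma H_comp_of_law {Ω' : Type*} [Fintype Ω'] {μ' : Ω' → ℝ} {X : Ω → α} {X' : Ω' → α}
    (h : ∀ x, Pr μ X x = Pr μ' X' x) (f : α → β) :
    H μ (fun ω => f (X ω)) = H μ' (fun ω => f (X' ω)) :=
  H_eq_of_law (Pr_comp_of_law h f)

/-! ## Conditionally independent copies -/

/-- pairs of points with the same value of `Z` -/
def CC (Z : Ω → γ) : Type _ := {p : Ω × Ω // Z p.1 = Z p.2}

open Classical in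
instance (Z : Ω → γ) : Fintype (CC Z) := inferInstanceAs (Fintype {p : Ω × Ω // Z p.1 = Z p.2})

/-- the law of two copies which are conditionally independent given `Z` -/
def ccp (μ : Ω → ℝ) (Z : Ω → γ) (p : CC Z) : ℝ := μ p.1.1 * μ p.1.2 / Pr μ Z (Z p.1.1)

open Classical in
lemma sum_CC (Z : Ω → γ) (f : Ω × Ω → ℝ) :
    ∑ p : CC Z, f p.1 = ∑ a, ∑ b, if Z a = Z b then f (a, b) else 0 := by
  rw [← Fintype.sum_prod_type' (fun a b => if Z a = Z b then f (a, b) else 0)]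
  have h : ∑ p : CC Z, f p.1 = ∑ p : {p : Ω × Ω // Z p.1 = Z p.2}, f p.1 := rfl
  rw [h, ← sum_filter, ← Finset.sum_subtype (univ.filter fun p : Ω × Ω => Z p.1 = Z p.2)
    (fun p => by simp) f]

/-- a function of the first copy has the same mean -/
lemma sum_cc_fst (hμ : IsProb μ) (Z : Ω → γ) (f : Ω → ℝ) :
    ∑ p : CC Z, ccp μ Z p * f p.1.1 = ∑ ω, μ ω * f ω := by
  classical
  have h := sum_CC Z (fun p : Ω × Ω => μ p.1 * μ p.2 / Pr μ Z (Z p.1) * f p.1)
  have h' : ∑ p : CC Z, ccp μ Z p * f p.1.1 =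
      ∑ p : CC Z, (fun p : Ω × Ω => μ p.1 * μ p.2 / Pr μ Z (Z p.1) * f p.1) p.1 := rfl
  rw [h', h]
  refine sum_congr rfl fun a _ => ?_
  have h1 : ∀ b, (if Z a = Z b then μ a * μ b / Pr μ Z (Z a) * f a else 0) =
      μ a * f a / Pr μ Z (Z a) * (if Z b = Z a then μ b else 0) := by
    intro b
    by_cases hb : Z a = Z b
    · rw [if_pos hb, if_pos hb.symm]; ring
    · rw [if_neg hb, if_neg (fun h => hb h.symm), mul_zero]
  show ∑ b, (if Z a = Z b then μ a * μ b / Pr μ Z (Z a) * f a else 0) = _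
  rw [sum_congr rfl fun b _ => h1 b, ← mul_sum]
  have h2 : ∑ b, (if Z b = Z a then μ b else 0) = Pr μ Z (Z a) := by
    unfold Pr
    exact sum_congr rfl fun b _ => by congr
  rw [h2]
  rcases (hμ.nonneg a).eq_or_lt with h0 | h0
  · rw [← h0]; simp
  · rw [div_mul_cancel₀ _ (Pr_pos hμ Z h0).ne']

/-- the swap -/
def CC.swap {Z : Ω → γ} (p : CC Z) : CC Z := ⟨(p.1.2, p.1.1), p.2.symm⟩

lemma cc_swap (μ : Ω → ℝ) (Z : Ω → γ) (p : CC Z) : ccp μ Z p.swap = ccp μ Z p := by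
  unfold ccp CC.swap
  simp only
  rw [← p.2, mul_comm (μ p.1.2)]

lemma sum_cc_swap (Z : Ω → γ) (f : CC Z → ℝ) :
    ∑ p : CC Z, ccp μ Z p * f p.swap = ∑ p : CC Z, ccp μ Z p * f p := by
  have e : Function.Involutive (CC.swap (Z := Z)) := fun p => rfl
  rw [← Equiv.sum_comp e.toPerm (fun p => ccp μ Z p * f p)]
  refine sum_congr rfl fun p _ => ?_
  show _ = ccp μ Z p.swap * f p.swap
  rw [cc_swap]

lemma sum_cc_snd (hμ : IsProb μ) (Z : Ω → γ) (f : Ω → ℝ) :
    ∑ p : CC Z, ccp μ Z p * f p.1.2 = ∑ ω, μ ω * f ω := by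
  rw [← sum_cc_fst hμ Z f, ← sum_cc_swap Z (fun p => f p.1.1)]
  rfl

lemma ccp_isProb (hμ : IsProb μ) (Z : Ω → γ) : IsProb (ccp μ Z) := by
  refine ⟨fun p => ?_, ?_⟩
  · exact div_nonneg (mul_nonneg (hμ.nonneg _) (hμ.nonneg _)) (Pr_nonneg hμ _ _)
  · have h := sum_cc_fst hμ Z (fun _ => 1)
    simp only [mul_one] at h
    rw [h, hμ.sum]

lemma Pr_cc_fst (hμ : IsProb μ) (Z : Ω → γ) (X : Ω → α) (x : α) :
    Pr (ccp μ Z) (fun p => X p.1.1) x = Pr μ X x := by
  classical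
  have h := sum_cc_fst hμ Z (fun ω => if X ω = x then 1 else 0)
  unfold Pr
  simpa only [mul_ite, mul_one, mul_zero] using h

lemma Pr_cc_snd (hμ : IsProb μ) (Z : Ω → γ) (X : Ω → α) (x : α) :
    Pr (ccp μ Z) (fun p => X p.1.2) x = Pr μ X x := by
  classical
  have h := sum_cc_snd hμ Z (fun ω => if X ω = x then 1 else 0)
  unfold Pr
  simpa only [mul_ite, mul_one, mul_zero] using h

lemma H_cc_fst (hμ : IsProb μ) (Z : Ω → γ) (X : Ω → α) :
    H (ccp μ Z) (fun p => X p.1.1) = H μ X := H_eq_of_law (Pr_cc_fst hμ Z X)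

lemma H_cc_snd (hμ : IsProb μ) (Z : Ω → γ) (X : Ω → α) :
    H (ccp μ Z) (fun p => X p.1.2) = H μ X := H_eq_of_law (Pr_cc_snd hμ Z X)

lemma Hc_cc_fst (hμ : IsProb μ) (Z : Ω → γ) (X : Ω → α) (Y : Ω → β) :
    Hc (ccp μ Z) (fun p => X p.1.1) (fun p => Y p.1.1) = Hc μ X Y := by
  unfold Hc
  rw [← H_cc_fst hμ Z, ← H_cc_fst hμ Z]

lemma Hc_cc_snd (hμ : IsProb μ) (Z : Ω → γ) (X : Ω → α) (Y : Ω → β) :
    Hc (ccp μ Z) (fun p => X p.1.2) (fun p => Y p.1.2) = Hc μ X Y := by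
  unfold Hc
  rw [← H_cc_snd hμ Z, ← H_cc_snd hμ Z]

/-- the entropy of the pair of copies -/
lemma H_cc (hμ : IsProb μ) (Z : Ω → γ) :
    H (ccp μ Z) (fun p => p) = 2 * H μ (fun ω => ω) - H μ Z := by
  classical
  have e1 : ∀ p : CC Z, Pr (ccp μ Z) (fun p => p) p = ccp μ Z p := by
    intro p
    unfold Pr
    rw [sum_ite_eq', if_pos (mem_univ p)]
  have e2 : ∀ ω : Ω, Pr μ (fun ω => ω) ω = μ ω := by
    intro p
    unfold Pr
    rw [sum_ite_eq', if_pos (mem_univ p)]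
  have h1 := sum_cc_fst hμ Z (fun ω => - log (Pr μ (fun ω => ω) ω))
  have h2 := sum_cc_snd hμ Z (fun ω => - log (Pr μ (fun ω => ω) ω))
  have h3 := sum_cc_fst hμ Z (fun ω => - log (Pr μ Z (Z ω)))
  have h4 : H (ccp μ Z) (fun p => p) = ∑ p : CC Z, (ccp μ Z p * - log (Pr μ (fun ω => ω) p.1.1) +
      ccp μ Z p * - log (Pr μ (fun ω => ω) p.1.2) - ccp μ Z p * - log (Pr μ Z (Z p.1.1))) := by
    unfold H
    refine sum_congr rfl fun p _ => ?_
    rw [e1, e2, e2]
    rcases ((ccp_isProb hμ Z).nonneg p).eq_or_lt with h0 | h0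
    · rw [← h0]; simp
    · have p1 : 0 < μ p.1.1 := by
        rcases (hμ.nonneg p.1.1).eq_or_lt with h | h
        · unfold ccp at h0; rw [← h] at h0; simp at h0
        · exact h
      have p2 : 0 < μ p.1.2 := by
        rcases (hμ.nonneg p.1.2).eq_or_lt with h | h
        · unfold ccp at h0; rw [← h] at h0; simp at h0
        · exact h
      have p3 := Pr_pos hμ Z p1
      have : log (ccp μ Z p) = log (μ p.1.1) + log (μ p.1.2) - log (Pr μ Z (Z p.1.1)) := by
        unfold ccp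
        rw [log_div (mul_pos p1 p2).ne' p3.ne', log_mul p1.ne' p2.ne']
      rw [this]; ring
  rw [h4, sum_sub_distrib, sum_add_distrib, h1, h2, h3]
  unfold H
  ring

/-- the two copies are conditionally independent -/
theorem I_cc (hμ : IsProb μ) (Z : Ω → γ) :
    I (ccp μ Z) (fun p => p.1.1) (fun p => p.1.2) (fun p => Z p.1.1) = 0 := by
  rw [I_eq_add]
  have h1 := Hc_cc_fst hμ Z (fun ω => ω) Z
  have h2 := Hc_cc_snd hμ Z (fun ω => ω) Z
  have h3 : (fun p : CC Z => Z p.1.1) = (fun p : CC Z => Z p.1.2) := by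
    funext p; exact p.2
  have h4 := H_cc hμ Z
  have h5 : Hc μ (fun ω => ω) Z = H μ (fun ω => ω) - H μ Z := by
    unfold Hc
    rw [H_congr (X := fun ω => (ω, Z ω)) (Y := fun ω => ω) (det_fst _ _)
      ((Det.refl _).pair fun a b e => by rw [show a = b from e])]
  have h6 : Hc (ccp μ Z) (fun p => (p.1.1, p.1.2)) (fun p => Z p.1.1) =
      H (ccp μ Z) (fun p => p) - H μ Z := by
    unfold Hc
    rw [H_cc_fst hμ Z Z]
    congr 1
    refine H_congr ?_ ?_
    · intro a b e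
      simp only [Prod.mk.injEq] at e
      exact Subtype.ext (Prod.ext e.1.1 e.1.2)
    · intro a b e
      rw [show a = b from e]
  have h2' : Hc (ccp μ Z) (fun p => p.1.2) (fun p => Z p.1.1) = Hc μ (fun ω => ω) Z := by
    rw [h3]; exact h2
  rw [h1, h2', h6, h4, h5]
  ring

theorem I_cc' (hμ : IsProb μ) (Z : Ω → γ) (X : Ω → α) (Y : Ω → β) :
    I (ccp μ Z) (fun p => X p.1.1) (fun p => Y p.1.2) (fun p => Z p.1.1) = 0 := by
  refine le_antisymm ?_ (I_nonneg (ccp_isProb hμ Z) _ _ _)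
  rw [← I_cc hμ Z]
  exact (I_mono_left (ccp_isProb hμ Z) _ _ (Det.comp (fun p : CC Z => p.1.1) X)).trans
    (I_mono_right (ccp_isProb hμ Z) _ _ (Det.comp (fun p : CC Z => p.1.2) Y))

/-! ## Entropic Balog-Szemerédi-Gowers -/

/-- **Entropic BSG** (Green-Gowers-Manners-Tao, Lemma A.2), with labels: let `Z = (A + B, W)` and
let `A₁, A₂` be copies of `A`, conditionally independent given `Z`.  Then
`H (A₁ + A₂ | Z) - H (A | Z) ≤ 3 I (A; B | W) + 2 H (A + B | W) - H (A | W) - H (B | W)`. -/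
theorem bsg (hμ : IsProb μ) (A B : Ω → G) (W : Ω → δ) :
    Hc (ccp μ (fun ω => (A ω + B ω, W ω))) (fun p => A p.1.1 + A p.1.2)
        (fun p => (A p.1.1 + B p.1.1, W p.1.1)) - Hc μ A (fun ω => (A ω + B ω, W ω)) ≤
      3 * I μ A B W + 2 * Hc μ (fun ω => A ω + B ω) W - Hc μ A W - Hc μ B W := by
  set Z : Ω → G × δ := fun ω => (A ω + B ω, W ω) with hZ
  have hν := ccp_isProb hμ Z
  set ν := ccp μ Z with hνd
  have hZZ : ∀ p : CC Z, A p.1.1 + B p.1.1 = A p.1.2 + B p.1.2 ∧ W p.1.1 = W p.1.2 := by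
    intro p
    have := p.2
    simpa [hZ] using this
  -- step 1
  have s1 : Hc ν (fun p => A p.1.1 + A p.1.2) (fun p => (A p.1.1 + B p.1.1, W p.1.1)) ≤
      Hc ν (fun p => A p.1.1 - B p.1.2) (fun p => W p.1.1) := by
    have e1 : Hc ν (fun p => A p.1.1 + A p.1.2) (fun p => (A p.1.1 + B p.1.1, W p.1.1)) =
        Hc ν (fun p => A p.1.1 - B p.1.2) (fun p => (A p.1.1 + B p.1.1, W p.1.1)) := by
      have := Hc_add_det ν (fun p : CC Z => A p.1.1 - B p.1.2) (fun p : CC Z => A p.1.1 + B p.1.1)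
        (fun p : CC Z => (A p.1.1 + B p.1.1, W p.1.1)) (det_fst _ _)
      rw [← this]
      congr 1
      funext p
      rw [(hZZ p).1]; abel
    rw [e1]
    exact Hc_anti hν _ (det_snd _ _)
  -- step 2
  have s2 := submod hν (fun p : CC Z => (A p.1.1, B p.1.2)) (fun p : CC Z => (A p.1.2, B p.1.1))
    (fun p : CC Z => A p.1.1 - B p.1.2) (fun p : CC Z => W p.1.1) ?_ ?_
  rotate_left
  · intro a b e
    simp only [Prod.mk.injEq] at e ⊢
    rw [e.1.1, e.1.2]
  · intro a b e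
    simp only [Prod.mk.injEq] at e ⊢
    have h1 : A a.1.1 - B a.1.2 = A a.1.2 - B a.1.1 := by
      rw [sub_eq_sub_iff_add_eq_add]; exact (hZZ a).1
    have h2 : A b.1.1 - B b.1.2 = A b.1.2 - B b.1.1 := by
      rw [sub_eq_sub_iff_add_eq_add]; exact (hZZ b).1
    rw [h1, h2, e.1.1, e.1.2]
  -- the laws
  have w12 : (fun p : CC Z => W p.1.1) = (fun p : CC Z => W p.1.2) := by
    funext p; exact (hZZ p).2
  have hA1 : Hc ν (fun p => A p.1.1) (fun p => W p.1.1) = Hc μ A W := Hc_cc_fst hμ Z A W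
  have hB1 : Hc ν (fun p => B p.1.1) (fun p => W p.1.1) = Hc μ B W := Hc_cc_fst hμ Z B W
  have hA2 : Hc ν (fun p => A p.1.2) (fun p => W p.1.1) = Hc μ A W := by
    rw [w12]; exact Hc_cc_snd hμ Z A W
  have hB2 : Hc ν (fun p => B p.1.2) (fun p => W p.1.1) = Hc μ B W := by
    rw [w12]; exact Hc_cc_snd hμ Z B W
  have s3 := Hc_pair_le hν (fun p : CC Z => A p.1.1) (fun p : CC Z => B p.1.2)
    (fun p : CC Z => W p.1.1)
  have s4 := Hc_pair_le hν (fun p : CC Z => A p.1.2) (fun p : CC Z => B p.1.1)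
    (fun p : CC Z => W p.1.1)
  -- the joint entropy
  have s5 : Hc ν (fun p => ((A p.1.1, B p.1.2), (A p.1.2, B p.1.1))) (fun p => W p.1.1) =
      Hc μ (fun ω => A ω + B ω) W + 2 * Hc μ A Z := by
    have e1 : Hc ν (fun p => ((A p.1.1, B p.1.2), (A p.1.2, B p.1.1))) (fun p => W p.1.1) =
        Hc ν (fun p => ((A p.1.1, A p.1.2), A p.1.1 + B p.1.1)) (fun p => W p.1.1) := by
      refine Hc_congr ?_ ?_ (Det.refl _) (Det.refl _)
      · intro a b e
        simp only [Prod.mk.injEq] at e ⊢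
        obtain ⟨⟨e1, e2⟩, e3, e4⟩ := e
        rw [e1, e3, e4]
        exact ⟨⟨rfl, rfl⟩, rfl⟩
      · intro a b e
        simp only [Prod.mk.injEq] at e ⊢
        obtain ⟨⟨e1, e2⟩, e3⟩ := e
        have h3 : B a.1.1 = B b.1.1 := by
          rw [e1] at e3; exact add_left_cancel e3
        have h4 : B a.1.2 = B b.1.2 := by
          have h5 : A a.1.2 + B a.1.2 = A b.1.2 + B b.1.2 := by
            rw [← (hZZ a).1, ← (hZZ b).1, e3]
          rw [e2] at h5; exact add_left_cancel h5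
        exact ⟨⟨e1, h4⟩, e2, h3⟩
    rw [e1, Hc_pair]
    have e2 : Hc ν (fun p => A p.1.1 + B p.1.1) (fun p => W p.1.1) =
        Hc μ (fun ω => A ω + B ω) W := Hc_cc_fst hμ Z (fun ω => A ω + B ω) W
    have e3 := I_cc' hμ Z A A
    rw [I_eq_add] at e3
    have e4 : Hc ν (fun p => A p.1.1) (fun p => Z p.1.1) = Hc μ A Z := Hc_cc_fst hμ Z A Z
    have e5 : Hc ν (fun p => A p.1.2) (fun p => Z p.1.1) = Hc μ A Z := by
      have : (fun p : CC Z => Z p.1.1) = (fun p : CC Z => Z p.1.2) := by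
        funext p; exact p.2
      rw [this]; exact Hc_cc_snd hμ Z A Z
    rw [e4, e5] at e3
    have e6 : Hc ν (fun p => (A p.1.1, A p.1.2)) (fun p => (A p.1.1 + B p.1.1, W p.1.1)) =
        2 * Hc μ A Z := by
      have : Hc ν (fun p => (A p.1.1, A p.1.2)) (fun p => Z p.1.1) = 2 * Hc μ A Z := by linarith
      exact this
    rw [e2, e6]
  have s6 : Hc μ A Z = Hc μ (fun ω => (A ω, B ω)) W - Hc μ (fun ω => A ω + B ω) W := by
    have h1 := Hc_pair μ A (fun ω => A ω + B ω) W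
    have h2 : Hc μ (fun ω => (A ω, A ω + B ω)) W = Hc μ (fun ω => (A ω, B ω)) W := by
      refine Hc_congr ?_ ?_ (Det.refl _) (Det.refl _)
      · intro a b e
        simp only [Prod.mk.injEq] at e ⊢
        obtain ⟨e1, e2⟩ := e
        rw [e1] at e2
        exact ⟨e1, add_left_cancel e2⟩
      · intro a b e
        simp only [Prod.mk.injEq] at e ⊢
        rw [e.1, e.2]
        exact ⟨rfl, rfl⟩
    rw [← h2, h1, hZ]; ring
  have s7 := I_eq_add μ A B W
  rw [hA1, hB2] at s3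
  rw [hA2, hB1] at s4
  rw [s5] at s2
  linarith

end Vale.Agent.P091.AD
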