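import Vale.Agent.P091.AD.H921.Ruz

/-!
# P091, AD block, row B7(e) (helper921): relative entropy toolbox

`dl s P R = ∑ x ∈ s, P x * log (P x / R x)` on a finset; `KL` is the case of a finite sample space
and `KLv` the relative entropy of the laws of a variable.
-/

set_option autoImplicit false

open Finset Real

noncomputable section

namespace Vale.Agent.P091.AD

open Vale.Agent.P065.Ent

/-! ## Pointwise inequalities -/

/-- `f t = t log t - t + 1 ≥ 0` in the form `a - b ≤ a log (a / b)` -/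
lemma sub_le_mul_log {a b : ℝ} (ha : 0 ≤ a) (hb : 0 ≤ b) (hab : b = 0 → a = 0) :
    a - b ≤ a * log (a / b) := by
  rcases ha.eq_or_lt with h0 | h0
  · rw [← h0]; simp [hb]
  · have hb' : 0 < b := hb.lt_of_ne fun h => h0.ne' (hab h.symm)
    have h1 := log_le_sub_one_of_pos (div_pos hb' h0)
    have h2 : log (a / b) = - log (b / a) := by rw [← log_inv, inv_div]
    rw [h2]
    have h3 : a * log (b / a) ≤ a * (b / a - 1) := mul_le_mul_of_nonneg_left h1 h0.le
    have h4 : a * (b / a - 1) = b - a := by field_simp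
    linarith

/-- `a log (b / a) ≤ b / e` -/
lemma mul_log_le_exp {a b : ℝ} (ha : 0 ≤ a) (hb : 0 ≤ b) : a * log (b / a) ≤ b * exp (-1) := by
  rcases ha.eq_or_lt with h0 | h0
  · rw [← h0]; simp only [zero_mul]; positivity
  · rcases hb.eq_or_lt with h1 | h1
    · rw [← h1]; simp
    · -- log x ≤ x / e
      have key : log (b / a) ≤ (b / a) * exp (-1) := by
        have h2 := log_le_sub_one_of_pos (show 0 < (b / a) * exp (-1) by positivity)
        rw [log_mul (by positivity) (by positivity), log_exp] at h2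
        linarith
      calc a * log (b / a) ≤ a * ((b / a) * exp (-1)) := mul_le_mul_of_nonneg_left key h0.le
        _ = b * exp (-1) := by field_simp

/-! ## Relative entropy on a finset -/

section dl

variable {ι κ : Type*}

/-- relative entropy -/
def dl (s : Finset ι) (P R : ι → ℝ) : ℝ := ∑ x ∈ s, P x * log (P x / R x)

/-- `P` is absolutely continuous with respect to `R` on `s` -/
def AC (s : Finset ι) (P R : ι → ℝ) : Prop := ∀ x ∈ s, R x = 0 → P x = 0

lemma dl_ge_sub {s : Finset ι} {P R : ι → ℝ} (hP : ∀ x ∈ s, 0 ≤ P x) (hR : ∀ x ∈ s, 0 ≤ R x)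
    (hac : AC s P R) : ∑ x ∈ s, P x - ∑ x ∈ s, R x ≤ dl s P R := by
  unfold dl
  rw [← sum_sub_distrib]
  exact sum_le_sum fun x hx => sub_le_mul_log (hP x hx) (hR x hx) (hac x hx)

/-- relative entropy is nonnegative -/
lemma dl_nonneg {s : Finset ι} {P R : ι → ℝ} (hP : ∀ x ∈ s, 0 ≤ P x) (hR : ∀ x ∈ s, 0 ≤ R x)
    (hac : AC s P R) (h : ∑ x ∈ s, R x ≤ ∑ x ∈ s, P x) : 0 ≤ dl s P R := by
  have := dl_ge_sub hP hR hac
  linarith

/-- **log-sum inequality** -/
lemma log_sum {s : Finset ι} {P R : ι → ℝ} (hP : ∀ x ∈ s, 0 ≤ P x) (hR : ∀ x ∈ s, 0 ≤ R x)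
    (hac : AC s P R) :
    (∑ x ∈ s, P x) * log ((∑ x ∈ s, P x) / ∑ x ∈ s, R x) ≤ dl s P R := by
  set A := ∑ x ∈ s, P x with hA
  set B := ∑ x ∈ s, R x with hB
  have hA0 : 0 ≤ A := sum_nonneg hP
  have hB0 : 0 ≤ B := sum_nonneg hR
  rcases hB0.eq_or_lt with hB1 | hB1
  · have h1 : ∀ x ∈ s, R x = 0 := (sum_eq_zero_iff_of_nonneg hR).mp hB1.symm
    have h2 : ∀ x ∈ s, P x = 0 := fun x hx => hac x hx (h1 x hx)
    have h3 : A = 0 := sum_eq_zero h2
    unfold dl
    rw [h3, zero_mul, sum_eq_zero fun x hx => by rw [h2 x hx, zero_mul]]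
  rcases hA0.eq_or_lt with hA1 | hA1
  · have h2 : ∀ x ∈ s, P x = 0 := (sum_eq_zero_iff_of_nonneg hP).mp hA1.symm
    unfold dl
    rw [← hA1, zero_mul, sum_eq_zero fun x hx => by rw [h2 x hx, zero_mul]]
  -- rescale `R`
  have h1 := dl_ge_sub (s := s) (P := P) (R := fun x => R x * (A / B)) hP
    (fun x hx => mul_nonneg (hR x hx) (by positivity)) ?_
  · rw [← sum_mul, ← hA, ← hB, mul_div_cancel₀ _ hB1.ne', sub_self] at h1
    have h2 : dl s P (fun x => R x * (A / B)) = dl s P R - A * log (A / B) := by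
      unfold dl
      rw [hA, sum_mul, ← sum_sub_distrib]
      refine sum_congr rfl fun x hx => ?_
      rcases (hP x hx).eq_or_lt with h0 | h0
      · rw [← h0]; simp
      · have h3 : 0 < R x := (hR x hx).lt_of_ne fun h => h0.ne' (hac x hx h.symm)
        rw [← hA]
        have h4 : P x / (R x * (A / B)) = (P x / R x) / (A / B) := by
          rw [div_div]
        rw [h4, log_div (by positivity) (by positivity)]
        ring
    linarith
  · intro x hx h
    have h5 : R x = 0 := by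
      rcases mul_eq_zero.mp h with h | h
      · exact h
      · exact absurd h (by positivity)
    exact hac x hx h5

/-- the log-sum inequality for two terms -/
lemma log_sum_two {a b c d : ℝ} (ha : 0 ≤ a) (hb : 0 ≤ b) (hc : 0 ≤ c) (hd : 0 ≤ d)
    (hac : c = 0 → a = 0) (hbd : d = 0 → b = 0) :
    (a + b) * log ((a + b) / (c + d)) ≤ a * log (a / c) + b * log (b / d) := by
  have h := log_sum (s := (univ : Finset Bool)) (P := fun i => cond i a b)
    (R := fun i => cond i c d) (by simp [ha, hb]) (by simp [hc, hd]) (by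
      intro i _ hi
      cases i
      · exact hbd hi
      · exact hac hi)
  simpa [dl] using h

/-- joint convexity of the relative entropy -/
lemma dl_convex {s : Finset ι} {t : Finset κ} {c : κ → ℝ} {P R : κ → ι → ℝ}
    (hc : ∀ k ∈ t, 0 ≤ c k) (hP : ∀ k ∈ t, ∀ x ∈ s, 0 ≤ P k x) (hR : ∀ k ∈ t, ∀ x ∈ s, 0 ≤ R k x)
    (hac : ∀ k ∈ t, AC s (P k) (R k)) :
    dl s (fun x => ∑ k ∈ t, c k * P k x) (fun x => ∑ k ∈ t, c k * R k x) ≤
      ∑ k ∈ t, c k * dl s (P k) (R k) := by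
  unfold dl
  have h : ∀ x ∈ s, (∑ k ∈ t, c k * P k x) *
      log ((∑ k ∈ t, c k * P k x) / ∑ k ∈ t, c k * R k x) ≤
      ∑ k ∈ t, c k * (P k x * log (P k x / R k x)) := by
    intro x hx
    refine (log_sum (s := t) (P := fun k => c k * P k x) (R := fun k => c k * R k x)
      (fun k hk => mul_nonneg (hc k hk) (hP k hk x hx))
      (fun k hk => mul_nonneg (hc k hk) (hR k hk x hx)) ?_).trans (le_of_eq ?_)
    · intro k hk h
      rcases mul_eq_zero.mp h with h | h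
      · simp only [h, zero_mul]
      · simp only [hac k hk x hx h, mul_zero]
    · unfold dl
      refine sum_congr rfl fun k hk => ?_
      rcases (hc k hk).eq_or_lt with h0 | h0
      · have h0' : c k = 0 := h0.symm
        simp only [h0', zero_mul]
      · rw [mul_div_mul_left _ _ h0.ne']; ring
  refine (sum_le_sum h).trans (le_of_eq ?_)
  rw [sum_comm]
  exact sum_congr rfl fun k _ => by rw [mul_sum]

/-- change of the first argument: `P ≤ c P'` implies `D (P | R) ≤ log c + c (D (P' | R) + 1/e)` -/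
lemma dl_le_of_le {s : Finset ι} {P P' R : ι → ℝ} {c : ℝ} (hc : 0 < c)
    (hP : ∀ x ∈ s, 0 ≤ P x) (hP' : ∀ x ∈ s, 0 ≤ P' x) (hR : ∀ x ∈ s, 0 ≤ R x)
    (hP1 : ∑ x ∈ s, P x = 1) (hR1 : ∑ x ∈ s, R x ≤ 1)
    (hac : AC s P' R) (hle : ∀ x ∈ s, P x ≤ c * P' x) :
    dl s P R ≤ log c + c * (dl s P' R + exp (-1)) := by
  have hac' : AC s P P' := fun x hx h => le_antisymm (by simpa [h] using hle x hx) (hP x hx)
  -- `∑ P log (P / P') ≤ log c`
  have h1 : ∑ x ∈ s, P x * log (P x / P' x) ≤ log c := by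
    have h2 : ∀ x ∈ s, P x * log (P x / P' x) ≤ P x * log c := by
      intro x hx
      rcases (hP x hx).eq_or_lt with h0 | h0
      · rw [← h0]; simp
      · have h3 : 0 < P' x := (hP' x hx).lt_of_ne fun h => h0.ne' (hac' x hx h.symm)
        refine mul_le_mul_of_nonneg_left (log_le_log (by positivity) ?_) h0.le
        rw [div_le_iff₀ h3]; exact hle x hx
    refine (sum_le_sum h2).trans ?_
    rw [← sum_mul, hP1, one_mul]
  -- `∑ P log (P' / R) ≤ c ∑ P' log⁺ (P' / R)`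
  have h2 : ∀ x ∈ s, P x * log (P' x / R x) ≤ c * (P' x * log (P' x / R x) + R x * exp (-1)) := by
    intro x hx
    have hRx := hR x hx
    have hP'x := hP' x hx
    have h3 : - (P' x * log (P' x / R x)) ≤ R x * exp (-1) := by
      have := mul_log_le_exp hP'x hRx
      have h4 : log (R x / P' x) = - log (P' x / R x) := by rw [← log_inv, inv_div]
      rw [h4] at this
      linarith
    rcases le_total 0 (log (P' x / R x)) with h0 | h0
    · have h5 : P x * log (P' x / R x) ≤ c * P' x * log (P' x / R x) :=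
        mul_le_mul_of_nonneg_right (hle x hx) h0
      have h6 : 0 ≤ c * (R x * exp (-1)) := by positivity
      calc P x * log (P' x / R x) ≤ c * P' x * log (P' x / R x) := h5
        _ ≤ c * P' x * log (P' x / R x) + c * (R x * exp (-1)) := by linarith
        _ = _ := by ring
    · have h5 : P x * log (P' x / R x) ≤ 0 := mul_nonpos_of_nonneg_of_nonpos (hP x hx) h0
      have h6 : 0 ≤ c * (P' x * log (P' x / R x) + R x * exp (-1)) :=
        mul_nonneg hc.le (by linarith)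
      linarith
  have h3 : dl s P R = ∑ x ∈ s, P x * log (P x / P' x) + ∑ x ∈ s, P x * log (P' x / R x) := by
    unfold dl
    rw [← sum_add_distrib]
    refine sum_congr rfl fun x hx => ?_
    rcases (hP x hx).eq_or_lt with h0 | h0
    · rw [← h0]; simp
    · have h3 : 0 < P' x := (hP' x hx).lt_of_ne fun h => h0.ne' (hac' x hx h.symm)
      have h4 : 0 < R x := (hR x hx).lt_of_ne fun h => h3.ne' (hac x hx h.symm)
      rw [log_div h0.ne' h4.ne', log_div h0.ne' h3.ne', log_div h3.ne' h4.ne']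
      ring
  rw [h3]
  have h4 := sum_le_sum h2
  rw [← mul_sum, sum_add_distrib, ← sum_mul] at h4
  have h5 : c * (∑ x ∈ s, P' x * log (P' x / R x) + (∑ x ∈ s, R x) * exp (-1)) ≤
      c * (dl s P' R + exp (-1)) := by
    refine mul_le_mul_of_nonneg_left ?_ hc.le
    have := mul_le_mul_of_nonneg_right hR1 (exp_pos (-1)).le
    unfold dl
    linarith
  linarith

/-- the function `t log t - t + 1` is at least `1/7` on `[0, 1/2]`, homogeneous form -/
lemma far_term {p q : ℝ} (hp : 0 ≤ p) (hq : 0 ≤ q) (h : 2 * p ≤ q) :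
    q / 7 ≤ p * log (p / q) - p + q := by
  rcases hq.eq_or_lt with h0 | h0
  · rw [← h0] at h ⊢
    have : p = 0 := by linarith
    rw [this]; simp
  · -- `p log (p / q) ≥ p log (1/2) + (p - q/2)·...` use `p log (p/(q/2)) ≥ p - q/2`
    have h1 : p - q / 2 ≤ p * log (p / (q / 2)) :=
      sub_le_mul_log hp (by positivity) fun h => absurd h (by positivity)
    have h2 : p * log (p / (q / 2)) = p * log (p / q) + p * log 2 := by
      rcases hp.eq_or_lt with h3 | h3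
      · rw [← h3]; simp
      · have : p / (q / 2) = (p / q) * 2 := by field_simp
        rw [this, log_mul (by positivity) (by norm_num)]; ring
    have h3 : log 2 < 0.6931471808 := log_two_lt_d9
    have h4 : 0 < log 2 := log_pos (by norm_num)
    have h5 : p * log 2 ≤ (q / 2) * log 2 := mul_le_mul_of_nonneg_right (by linarith) h4.le
    have h6 : (q / 2) * log 2 ≤ (q / 2) * 0.6931471808 := by
      exact mul_le_mul_of_nonneg_left h3.le (by positivity)
    nlinarith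

/-- points where `P` is much smaller than `ν`: `ν {x | 2 P x ≤ ν x} ≤ 7 D (P | ν)` -/
lemma far_mass {s : Finset ι} {P ν : ι → ℝ} (hP : ∀ x ∈ s, 0 ≤ P x) (hν : ∀ x ∈ s, 0 ≤ ν x)
    (hac : AC s P ν) (h1 : ∑ x ∈ s, ν x ≤ ∑ x ∈ s, P x) (B : Finset ι) (hB : B ⊆ s)
    (hfar : ∀ x ∈ B, 2 * P x ≤ ν x) : ∑ x ∈ B, ν x ≤ 7 * dl s P ν := by
  have h2 : ∑ x ∈ s, (P x * log (P x / ν x) - P x + ν x) ≤ dl s P ν := by
    rw [sum_add_distrib, sum_sub_distrib]
    unfold dl
    linarith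
  have h3 : ∑ x ∈ B, (P x * log (P x / ν x) - P x + ν x) ≤
      ∑ x ∈ s, (P x * log (P x / ν x) - P x + ν x) :=
    sum_le_sum_of_subset_of_nonneg hB fun x hx _ => by
      have := sub_le_mul_log (hP x hx) (hν x hx) (hac x hx)
      linarith
  have h4 : ∑ x ∈ B, ν x / 7 ≤ ∑ x ∈ B, (P x * log (P x / ν x) - P x + ν x) :=
    sum_le_sum fun x hx => far_term (hP x (hB hx)) (hν x (hB hx)) (hfar x hx)
  rw [← sum_div] at h4
  linarith

/-- relative entropy of products: `D (P₁ ⊗ P₂ | R₁ ⊗ R₂) = D (P₁ | R₁) + D (P₂ | R₂)` -/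
lemma dl_prod {s : Finset ι} {t : Finset κ} {P R : ι → ℝ} {P' R' : κ → ℝ}
    (hP : ∀ x ∈ s, 0 ≤ P x) (hR : ∀ x ∈ s, 0 ≤ R x) (hac : AC s P R)
    (hP' : ∀ x ∈ t, 0 ≤ P' x) (hR' : ∀ x ∈ t, 0 ≤ R' x) (hac' : AC t P' R')
    (h1 : ∑ x ∈ s, P x = 1) (h1' : ∑ x ∈ t, P' x = 1) :
    dl (s ×ˢ t) (fun z => P z.1 * P' z.2) (fun z => R z.1 * R' z.2) = dl s P R + dl t P' R' := by
  have h : ∀ x ∈ s, ∀ y ∈ t, P x * P' y * log (P x * P' y / (R x * R' y)) =
      P' y * (P x * log (P x / R x)) + P x * (P' y * log (P' y / R' y)) := by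
    intro x hx y hy
    rcases (hP x hx).eq_or_lt with h0 | h0
    · rw [← h0]; simp
    rcases (hP' y hy).eq_or_lt with h0' | h0'
    · rw [← h0']; simp
    have h3 : 0 < R x := (hR x hx).lt_of_ne fun h => h0.ne' (hac x hx h.symm)
    have h4 : 0 < R' y := (hR' y hy).lt_of_ne fun h => h0'.ne' (hac' y hy h.symm)
    rw [log_div (by positivity) (by positivity), log_mul h0.ne' h0'.ne', log_mul h3.ne' h4.ne',
      log_div h0.ne' h3.ne', log_div h0'.ne' h4.ne']
    ring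
  unfold dl
  rw [sum_product]
  rw [sum_congr rfl fun x hx => sum_congr rfl fun y hy => h x hx y hy]
  have e : ∀ x ∈ s, ∑ y ∈ t, (P' y * (P x * log (P x / R x)) + P x * (P' y * log (P' y / R' y))) =
      P x * log (P x / R x) + P x * ∑ y ∈ t, P' y * log (P' y / R' y) := by
    intro x _
    rw [sum_add_distrib, ← sum_mul, h1', one_mul, ← mul_sum]
  rw [sum_congr rfl e, sum_add_distrib, ← sum_mul, h1, one_mul]

end dl

/-! ## Relative entropy on a finite sample space -/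

section kl

variable {Ω : Type*} [Fintype Ω] {α β γ δ : Type*}

/-- relative entropy of two weights -/
def KL (Q b : Ω → ℝ) : ℝ := ∑ ω, Q ω * log (Q ω / b ω)

open Classical in
/-- relative entropy of the laws of `X` -/
def KLv (Q b : Ω → ℝ) (X : Ω → α) : ℝ :=
  ∑ x ∈ univ.image X, Pr Q X x * log (Pr Q X x / Pr b X x)

/-- absolute continuity -/
def AbC (Q b : Ω → ℝ) : Prop := ∀ ω, b ω = 0 → Q ω = 0

open Classical in
lemma KLv_eq_dl (Q b : Ω → ℝ) (X : Ω → α) : KLv Q b X = dl (univ.image X) (Pr Q X) (Pr b X) := rfl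

lemma KL_eq_dl (Q b : Ω → ℝ) : KL Q b = dl univ Q b := rfl

lemma Pr_AC {Q b : Ω → ℝ} (hb : ∀ ω, 0 ≤ b ω) (h : AbC Q b) (X : Ω → α) (x : α)
    (hx : Pr b X x = 0) : Pr Q X x = 0 := by
  classical
  unfold Pr at hx ⊢
  rw [sum_eq_zero_iff_of_nonneg] at hx
  · refine sum_eq_zero fun ω _ => ?_
    split_ifs with hX
    · have := hx ω (mem_univ ω)
      rw [if_pos hX] at this
      exact h ω this
    · rfl
  · intro ω _
    split_ifs
    · exact hb ω
    · exact le_rfl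

lemma Pr_id (Q : Ω → ℝ) (ω : Ω) : Pr Q (fun ω => ω) ω = Q ω := by
  classical
  unfold Pr
  refine (sum_eq_single ω (fun b _ hb => if_neg hb) fun h => absurd (mem_univ ω) h).trans ?_
  exact if_pos rfl

lemma KLv_id (Q b : Ω → ℝ) : KLv Q b (fun ω => ω) = KL Q b := by
  classical
  unfold KLv KL
  rw [image_id']
  exact sum_congr rfl fun ω _ => by rw [Pr_id, Pr_id]

/-- the pointwise form -/
lemma KLv_eq_sum (Q b : Ω → ℝ) (X : Ω → α) :
    KLv Q b X = ∑ ω, Q ω * log (Pr Q X (X ω) / Pr b X (X ω)) := by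
  classical
  rw [sum_fiber Q X (fun x => log (Pr Q X x / Pr b X x))]
  unfold KLv
  exact sum_congr (by congr) fun _ _ => rfl

lemma KLv_nonneg {Q b : Ω → ℝ} (hQ : IsProb Q) (hb : IsProb b) (h : AbC Q b) (X : Ω → α) :
    0 ≤ KLv Q b X := by
  classical
  rw [KLv_eq_dl]
  refine dl_nonneg (fun x _ => Pr_nonneg hQ X x) (fun x _ => Pr_nonneg hb X x)
    (fun x _ hx => Pr_AC hb.nonneg h X x hx) ?_
  rw [sum_Pr hQ X, sum_Pr hb X]

lemma KL_nonneg {Q b : Ω → ℝ} (hQ : IsProb Q) (hb : IsProb b) (h : AbC Q b) : 0 ≤ KL Q b := by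
  rw [← KLv_id]; exact KLv_nonneg hQ hb h _

/-- positivity of the marginal weights at charged points -/
lemma Pr_pos_of_AC {Q b : Ω → ℝ} (hb : IsProb b) (h : AbC Q b) (X : Ω → α) {ω : Ω}
    (h0 : Q ω ≠ 0) : 0 < Pr b X (X ω) :=
  Pr_pos hb X ((hb.nonneg ω).lt_of_ne fun hh => h0 (h ω hh.symm))

/-- **chain rule**: `D (X, Y) = D (Y) + E D (X | Y)`, pointwise form -/
lemma KLv_pair {Q b : Ω → ℝ} (hQ : IsProb Q) (hb : IsProb b) (h : AbC Q b) (X : Ω → α)
    (Y : Ω → β) : KLv Q b (fun ω => (X ω, Y ω)) = KLv Q b Y +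
      ∑ ω, Q ω * log ((Pr Q (fun ω => (X ω, Y ω)) (X ω, Y ω) / Pr Q Y (Y ω)) /
        (Pr b (fun ω => (X ω, Y ω)) (X ω, Y ω) / Pr b Y (Y ω))) := by
  rw [KLv_eq_sum, KLv_eq_sum, ← sum_add_distrib]
  refine sum_congr rfl fun ω _ => ?_
  rcases (hQ.nonneg ω).eq_or_lt with h0 | h0
  · rw [← h0]; simp
  · have q1 := Pr_pos hQ (fun ω => (X ω, Y ω)) h0
    have q2 := Pr_pos hQ Y h0
    have b1 := Pr_pos_of_AC hb h (fun ω => (X ω, Y ω)) h0.ne'
    have b2 := Pr_pos_of_AC hb h Y h0.ne'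
    rw [log_div q1.ne' b1.ne', log_div q2.ne' b2.ne',
      log_div (div_pos q1 q2).ne' (div_pos b1 b2).ne', log_div q1.ne' q2.ne',
      log_div b1.ne' b2.ne']
    ring

/-- **chain rule**, fibre form -/
lemma KLv_pair' {Q b : Ω → ℝ} (hQ : IsProb Q) (hb : IsProb b) (h : AbC Q b) (X : Ω → α)
    (Y : Ω → β) [DecidableEq β] : KLv Q b (fun ω => (X ω, Y ω)) = KLv Q b Y +
      ∑ y ∈ univ.image Y, Pr Q Y y * KLv (cnd Q Y y) (cnd b Y y) X := by
  classical
  rw [KLv_pair hQ hb h X Y]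
  congr 1
  have h1 := sum_cnd_fiber hQ Y (fun y ω =>
    log (Pr Q (fun ω => (X ω, Y ω)) (X ω, y) / Pr Q Y y /
      (Pr b (fun ω => (X ω, Y ω)) (X ω, y) / Pr b Y y)))
  refine h1.trans (sum_congr rfl fun y _ => ?_)
  congr 1
  rw [KLv_eq_sum]
  refine sum_congr rfl fun ω _ => ?_
  rw [Pr_cnd, Pr_cnd]

lemma cnd_AbC {Q b : Ω → ℝ} (hb : IsProb b) (h : AbC Q b) (Y : Ω → β) {y : β}
    (hy : 0 < Pr Q Y y) : AbC (cnd Q Y y) (cnd b Y y) := by
  classical
  intro ω hω
  have hby : 0 < Pr b Y y := (Pr_nonneg hb Y y).lt_of_ne fun hh => hy.ne' (Pr_AC hb.nonneg h Y y hh.symm)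
  unfold cnd at hω ⊢
  split_ifs at hω ⊢ with h1
  · rcases div_eq_zero_iff.mp hω with h2 | h2
    · rw [h ω h2, zero_div]
    · exact absurd h2 hby.ne'
  · rfl

/-- **data processing** -/
theorem KLv_mono {Q b : Ω → ℝ} (hQ : IsProb Q) (hb : IsProb b) (h : AbC Q b) {X : Ω → α}
    {Y : Ω → β} (hd : Det X Y) : KLv Q b Y ≤ KLv Q b X := by
  classical
  have h1 := KLv_pair' hQ hb h X Y
  have h2 : KLv Q b (fun ω => (X ω, Y ω)) = KLv Q b X := by
    rw [KLv_eq_sum, KLv_eq_sum]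
    refine sum_congr rfl fun ω _ => ?_
    rw [Pr_congr (μ := Q) (det_fst X Y) ((Det.refl X).pair hd) ω,
      Pr_congr (μ := b) (det_fst X Y) ((Det.refl X).pair hd) ω]
  have h3 : 0 ≤ ∑ y ∈ univ.image Y, Pr Q Y y * KLv (cnd Q Y y) (cnd b Y y) X := by
    refine sum_nonneg fun y _ => ?_
    rcases (Pr_nonneg hQ Y y).eq_or_lt with h0 | h0
    · rw [← h0, zero_mul]
    · have hby : 0 < Pr b Y y :=
        (Pr_nonneg hb Y y).lt_of_ne fun hh => h0.ne' (Pr_AC hb.nonneg h Y y hh.symm)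
      exact mul_nonneg h0.le (KLv_nonneg (cnd_isProb hQ h0) (cnd_isProb hb hby)
        (cnd_AbC hb h Y h0) X)
  linarith

lemma KLv_le_KL {Q b : Ω → ℝ} (hQ : IsProb Q) (hb : IsProb b) (h : AbC Q b) (X : Ω → α) :
    KLv Q b X ≤ KL Q b := by
  rw [← KLv_id]
  exact KLv_mono hQ hb h (fun a c e => by rw [show a = c from e])

/-- conditioning on an event: `P (E) D (Q_E | b) ≤ D (Q | b) + 1/e` for `Q_E = Q (· | Y = y)` -/
lemma KL_cnd_le {Q b : Ω → ℝ} (hQ : IsProb Q) (hb : IsProb b) (h : AbC Q b) (Y : Ω → β) (y : β)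
    (hy : 0 < Pr Q Y y) : KL (cnd Q Y y) b ≤ (KL Q b + 1) / Pr Q Y y + log (1 / Pr Q Y y) := by
  classical
  have hc : IsProb (cnd Q Y y) := cnd_isProb hQ hy
  have hle : ∀ ω, cnd Q Y y ω ≤ (1 / Pr Q Y y) * Q ω := by
    intro ω
    unfold cnd
    split_ifs
    · rw [div_mul_eq_mul_div, one_mul]
    · exact mul_nonneg (by positivity) (hQ.nonneg ω)
  have h1 := dl_le_of_le (s := univ) (P := cnd Q Y y) (P' := Q) (R := b) (c := 1 / Pr Q Y y)
    (by positivity) (fun x _ => hc.nonneg x) (fun x _ => hQ.nonneg x) (fun x _ => hb.nonneg x)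
    hc.sum hb.sum.le (fun x _ => h x) (fun x _ => hle x)
  have h2 : exp (-1) ≤ 1 := by
    rw [← exp_zero]; exact exp_le_exp.mpr (by norm_num)
  have h3 : 1 / Pr Q Y y * (dl univ Q b + exp (-1)) ≤ 1 / Pr Q Y y * (KL Q b + 1) :=
    mul_le_mul_of_nonneg_left (by rw [KL_eq_dl]; linarith) (by positivity)
  rw [KL_eq_dl]
  calc _ ≤ _ := h1
    _ ≤ log (1 / Pr Q Y y) + 1 / Pr Q Y y * (KL Q b + 1) := by linarith
    _ = _ := by ring

/-! ## Mutual information and references -/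

/-- `I (X; Y | W) = ∑ μ log (P (X | Y, W) / P (X | W))` -/
lemma I_eq_sum {μ : Ω → ℝ} (hμ : IsProb μ) (X : Ω → α) (Y : Ω → β) (W : Ω → δ) :
    I μ X Y W = ∑ ω, μ ω * log ((Pr μ (fun ω => (X ω, (Y ω, W ω))) (X ω, (Y ω, W ω)) /
        Pr μ (fun ω => (Y ω, W ω)) (Y ω, W ω)) /
      (Pr μ (fun ω => (X ω, W ω)) (X ω, W ω) / Pr μ W (W ω))) := by
  unfold I
  rw [Hc_eq_sum hμ, Hc_eq_sum hμ, ← sum_sub_distrib]
  refine sum_congr rfl fun ω _ => ?_
  rcases (hμ.nonneg ω).eq_or_lt with h0 | h0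
  · rw [← h0]; simp
  · have p1 := Pr_pos hμ (fun ω => (X ω, W ω)) h0
    have p2 := Pr_pos hμ (fun ω => (Y ω, W ω)) h0
    have p3 := Pr_pos hμ W h0
    have p4 := Pr_pos hμ (fun ω => (X ω, (Y ω, W ω))) h0
    rw [log_div (div_pos p4 p2).ne' (div_pos p1 p3).ne']
    ring

/-- **variational bound**: for every reference `q w` (sub-probability)
`I (X; Y | W) ≤ ∑ μ log (P (X | Y, W) / q_W (X))` -/
lemma I_le_ref [DecidableEq α] {μ : Ω → ℝ} (hμ : IsProb μ) (X : Ω → α) (Y : Ω → β) (W : Ω → δ)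
    (q : δ → α → ℝ) (hq : ∀ ω, 0 < μ ω → 0 < q (W ω) (X ω))
    (hq0 : ∀ ω, ∀ x ∈ univ.image X, 0 ≤ q (W ω) x)
    (hq1 : ∀ ω, ∑ x ∈ univ.image X, q (W ω) x ≤ 1) :
    I μ X Y W ≤ ∑ ω, μ ω * log ((Pr μ (fun ω => (X ω, (Y ω, W ω))) (X ω, (Y ω, W ω)) /
        Pr μ (fun ω => (Y ω, W ω)) (Y ω, W ω)) / q (W ω) (X ω)) := by
  have h := gibbs hμ X W q hq hq0 hq1
  unfold I
  rw [Hc_eq_sum hμ X (fun ω => (Y ω, W ω))]
  have h2 : ∑ ω, μ ω * log ((Pr μ (fun ω => (X ω, (Y ω, W ω))) (X ω, (Y ω, W ω)) /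
        Pr μ (fun ω => (Y ω, W ω)) (Y ω, W ω)) / q (W ω) (X ω)) =
      ∑ ω, μ ω * (- log (q (W ω) (X ω))) -
      ∑ ω, μ ω * (- log (Pr μ (fun ω => (X ω, (Y ω, W ω))) (X ω, (Y ω, W ω)) /
        Pr μ (fun ω => (Y ω, W ω)) (Y ω, W ω))) := by
    rw [← sum_sub_distrib]
    refine sum_congr rfl fun ω _ => ?_
    rcases (hμ.nonneg ω).eq_or_lt with h0 | h0
    · rw [← h0]; simp
    · have p2 := Pr_pos hμ (fun ω => (Y ω, W ω)) h0
      have p4 := Pr_pos hμ (fun ω => (X ω, (Y ω, W ω))) h0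
      rw [log_div (div_pos p4 p2).ne' (hq ω h0).ne']
      ring
  linarith

end kl

end Vale.Agent.P091.AD
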